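import Mathlib

/-!
P202: lengths. The basic inequality: for an ideal `J` of `A` and `x : A`,
`∑_{i<N} ℓ(ker (x | J^i/J^(i+1))) ≤ ℓ(A/(J + xA)^N)`.
-/

namespace Vale.Agent.P202

open Submodule

section Gen

variable {A M M' : Type*} [CommRing A] [AddCommGroup M] [Module A M] [AddCommGroup M']
  [Module A M']

theorem length_eq_ker_add_range (u : M →ₗ[A] M') :
    Module.length A M = Module.length A (LinearMap.ker u) + Module.length A (LinearMap.range u) :=
  Module.length_eq_add_of_exact (LinearMap.ker u).subtype u.rangeRestrict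
    (Submodule.subtype_injective _) u.surjective_rangeRestrict
    (LinearMap.exact_iff.2 (by rw [LinearMap.ker_rangeRestrict, Submodule.range_subtype]))

theorem length_eq_sub_add_quot (P : Submodule A M) :
    Module.length A M = Module.length A P + Module.length A (M ⧸ P) :=
  Module.length_eq_add_of_exact P.subtype P.mkQ (Submodule.subtype_injective _)
    (Submodule.mkQ_surjective _) (LinearMap.exact_subtype_mkQ P)

theorem length_le_ker_add (u : M →ₗ[A] M') :
    Module.length A M ≤ Module.length A (LinearMap.ker u) + Module.length A M' := by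
  rw [length_eq_ker_add_range u]
  gcongr
  exact Module.length_le_of_injective _ (Submodule.subtype_injective _)

theorem length_ker_eq (hM : Module.length A M ≠ ⊤) (u : M →ₗ[A] M) :
    Module.length A (LinearMap.ker u) = Module.length A (M ⧸ LinearMap.range u) := by
  have h1 := length_eq_ker_add_range u
  have h2 := length_eq_sub_add_quot (LinearMap.range u)
  have h3 : Module.length A (LinearMap.range u) ≠ ⊤ := by
    intro h
    rw [h] at h1
    exact hM (by rw [h1]; simp)
  rw [h1, add_comm] at h2
  lift Module.length A (LinearMap.range u) to ℕ using h3 with r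
  exact WithTop.add_left_cancel (ENat.natCast_ne_top r) h2

theorem ker_pow_le (x : A) (i : ℕ) :
    Module.length A (LinearMap.ker (LinearMap.lsmul A M (x ^ i))) ≤
      i * Module.length A (LinearMap.ker (LinearMap.lsmul A M x)) := by
  induction i with
  | zero =>
    have : LinearMap.ker (LinearMap.lsmul A M (x ^ 0)) = ⊥ := by
      ext m
      simp
    rw [this, Module.length_bot]
    simp
  | succ i ih =>
    have hmem : ∀ m : LinearMap.ker (LinearMap.lsmul A M (x ^ (i + 1))),
        x ^ i • (m : M) ∈ LinearMap.ker (LinearMap.lsmul A M x) := by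
      intro m
      have := m.2
      rw [LinearMap.mem_ker, LinearMap.lsmul_apply] at this ⊢
      rw [smul_smul, ← pow_succ', this]
    let f : LinearMap.ker (LinearMap.lsmul A M (x ^ (i + 1))) →ₗ[A]
        LinearMap.ker (LinearMap.lsmul A M x) :=
      LinearMap.codRestrict _ ((LinearMap.lsmul A M (x ^ i)).comp (Submodule.subtype _)) hmem
    refine (length_le_ker_add f).trans ?_
    have hk : Module.length A (LinearMap.ker f) ≤
        Module.length A (LinearMap.ker (LinearMap.lsmul A M (x ^ i))) := by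
      let g : LinearMap.ker f →ₗ[A] LinearMap.ker (LinearMap.lsmul A M (x ^ i)) :=
        LinearMap.codRestrict _ ((Submodule.subtype _).comp (Submodule.subtype _)) (by
          intro m
          have h := m.2
          rw [LinearMap.mem_ker] at h ⊢
          exact congrArg Subtype.val h)
      refine Module.length_le_of_injective g ?_
      intro a b hab
      have := congrArg Subtype.val hab
      exact Subtype.ext (Subtype.ext this)
    push_cast
    rw [add_mul, one_mul]
    gcongr
    exact hk.trans ih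

/-- if `x^a` kills `M` then the kernel of `x` has at least `1/a` of the length of `M` -/
theorem length_le_mul_ker (x : A) (a : ℕ) (h : ∀ m : M, x ^ a • m = 0) :
    Module.length A M ≤ a * Module.length A (LinearMap.ker (LinearMap.lsmul A M x)) := by
  have := ker_pow_le (M := M) x a
  have h2 : LinearMap.ker (LinearMap.lsmul A M (x ^ a)) = ⊤ := by
    ext m
    simp [h m]
  rw [h2, Module.length_top] at this
  exact this

end Gen

section Q

variable {A : Type*} [CommRing A]

/-- the layer `J^i / J^(i+1)` inside `A / J^(i+1)` -/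
def Lay (J : Ideal A) (i : ℕ) : Submodule A (A ⧸ J ^ (i + 1)) :=
  Submodule.map (Submodule.mkQ (J ^ (i + 1))) (J ^ i)

/-- the kernel of `x` on the layer -/
def KL (J : Ideal A) (x : A) (i : ℕ) : Submodule A (Lay J i) :=
  LinearMap.ker (LinearMap.lsmul A (Lay J i) x)

theorem length_lay (J : Ideal A) (i : ℕ) :
    Module.length A (A ⧸ J ^ (i + 1)) =
      Module.length A (Lay J i) + Module.length A (A ⧸ J ^ i) := by
  rw [length_eq_sub_add_quot (Lay J i)]
  congr 1
  exact (Submodule.quotientQuotientEquivQuotient (J ^ (i + 1)) (J ^ i)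
    (Ideal.pow_le_pow_right (Nat.le_succ i))).length_eq

theorem sum_length_lay (J : Ideal A) (N : ℕ) :
    ∑ i ∈ Finset.range N, Module.length A (Lay J i) = Module.length A (A ⧸ J ^ N) := by
  induction N with
  | zero =>
    rw [Finset.sum_range_zero, pow_zero, Ideal.one_eq_top]
    exact (Module.length_eq_zero).symm
  | succ N ih => rw [Finset.sum_range_succ, ih, length_lay, add_comm]

theorem length_quot_anti {I I' : Ideal A} (h : I ≤ I') :
    Module.length A (A ⧸ I') ≤ Module.length A (A ⧸ I) :=
  Module.length_le_of_surjective (Submodule.factor h) (Submodule.factor_surjective h)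

variable (J : Ideal A) (x : A) (N : ℕ)

/-- the module `A[X]/(J, X)^N`; the coordinate `i` is the coefficient of `X^(N-1-i)` -/
abbrev QM : Type _ := ∀ i : Fin N, A ⧸ J ^ ((i : ℕ) + 1)

/-- multiplication by `x - X` -/
def uM : QM J N →ₗ[A] QM J N :=
  LinearMap.pi fun i =>
    x • LinearMap.proj (R := A) (φ := fun i : Fin N => A ⧸ J ^ ((i : ℕ) + 1)) i -
      (if h : (i : ℕ) + 1 < N then
        (Submodule.factor (Ideal.pow_le_pow_right (Nat.le_succ ((i : ℕ) + 1)) :
          J ^ ((i : ℕ) + 1 + 1) ≤ J ^ ((i : ℕ) + 1))).comp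
          (LinearMap.proj (R := A) (φ := fun i : Fin N => A ⧸ J ^ ((i : ℕ) + 1))
            ⟨(i : ℕ) + 1, h⟩)
      else 0)

/-- the class of a sequence of elements of `A` -/
def EM : (ℕ → A) →ₗ[A] QM J N :=
  LinearMap.pi fun i => (Submodule.mkQ (J ^ ((i : ℕ) + 1))).comp
    (LinearMap.proj (R := A) (φ := fun _ : ℕ => A) (i : ℕ))

theorem EM_apply (c : ℕ → A) (i : Fin N) :
    EM J N c i = Submodule.mkQ (J ^ ((i : ℕ) + 1)) (c i) := rfl

theorem uM_EM (c : ℕ → A) (hc : c N = 0) :
    uM J x N (EM J N c) = EM J N (fun i => x * c i - c (i + 1)) := by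
  funext i
  rw [EM_apply, map_sub]
  simp only [uM, LinearMap.pi_apply, LinearMap.sub_apply, LinearMap.smul_apply,
    LinearMap.proj_apply]
  rw [EM_apply]
  congr 1
  · by_cases h : (i : ℕ) + 1 < N
    · rw [dif_pos h]
      rfl
    · rw [dif_neg h]
      have : (i : ℕ) + 1 = N := by have := i.2; omega
      rw [this, hc]
      simp

theorem exists_EM (q : QM J N) : ∃ c : ℕ → A, EM J N c = q := by
  choose f hf using fun i : Fin N => Submodule.mkQ_surjective (J ^ ((i : ℕ) + 1)) (q i)
  refine ⟨fun n => if h : n < N then f ⟨n, h⟩ else 0, ?_⟩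
  funext i
  rw [EM_apply, ← hf i]
  simp

theorem single_comb (i : ℕ) (c : A) :
    (fun j => x * (Pi.single (i + 1) c : ℕ → A) j - (Pi.single (i + 1) c : ℕ → A) (j + 1)) =
      (Pi.single (i + 1) (x * c) : ℕ → A) - Pi.single i c := by
  funext j
  simp only [Pi.sub_apply, Pi.single_apply]
  by_cases h1 : j = i + 1
  · subst h1
    simp
  · by_cases h2 : j = i
    · subst h2
      simp
    · simp [h1, h2]

theorem single_comb_zero (c : A) :
    (fun j => x * (Pi.single 0 c : ℕ → A) j - (Pi.single 0 c : ℕ → A) (j + 1)) =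
      (Pi.single 0 (x * c) : ℕ → A) := by
  funext j
  simp only [Pi.single_apply]
  by_cases h1 : j = 0
  · subst h1
    simp
  · simp [h1]

/-- elements of `J^p (J + xA)^n` at place `i ≤ n + p - 1` vanish in the cokernel of `u` -/
theorem single_mem_range (n : ℕ) : ∀ (p i : ℕ), i < N → i + 1 ≤ n + p →
    ∀ c ∈ J ^ p * (J ⊔ Ideal.span {x}) ^ n,
      EM J N (Pi.single i c) ∈ LinearMap.range (uM J x N) := by
  induction n with
  | zero =>
    intro p i _ hp c hc
    rw [pow_zero, mul_one] at hc
    have h0 : EM J N (Pi.single i c) = 0 := by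
      funext j
      rw [EM_apply, Pi.zero_apply]
      by_cases hj : (j : ℕ) = i
      · rw [hj, Pi.single_eq_same]
        rw [Submodule.mkQ_apply, Submodule.Quotient.mk_eq_zero]
        exact Ideal.pow_le_pow_right (by omega) hc
      · rw [Pi.single_eq_of_ne hj, map_zero]
    rw [h0]
    exact zero_mem _
  | succ n ih =>
    intro p i hi hp c hc
    have hsplit : J ^ p * (J ⊔ Ideal.span {x}) ^ (n + 1) =
        J ^ (p + 1) * (J ⊔ Ideal.span {x}) ^ n ⊔
          Ideal.span {x} * (J ^ p * (J ⊔ Ideal.span {x}) ^ n) := by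
      rw [pow_succ (J ⊔ Ideal.span {x}) n, ← mul_assoc, Ideal.mul_sup, pow_succ J p]
      congr 1
      · ring
      · ring
    rw [hsplit] at hc
    obtain ⟨c1, h1, c2, h2, rfl⟩ := Submodule.mem_sup.1 hc
    have e : (Pi.single i (c1 + c2) : ℕ → A) = Pi.single i c1 + Pi.single i c2 :=
      (LinearMap.single A (fun _ : ℕ => A) i).map_add c1 c2
    rw [e, map_add]
    refine add_mem (ih (p + 1) i hi (by omega) c1 h1) ?_
    obtain ⟨c3, h3, rfl⟩ := Ideal.mem_span_singleton_mul.1 h2
    cases i with
    | zero =>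
      refine ⟨EM J N (Pi.single 0 c3), ?_⟩
      rw [uM_EM, single_comb_zero]
      rw [Pi.single_eq_of_ne (by omega)]
    | succ i =>
      have hr : uM J x N (EM J N (Pi.single (i + 1) c3)) =
          EM J N (Pi.single (i + 1) (x * c3)) - EM J N (Pi.single i c3) := by
        rw [uM_EM, single_comb, map_sub]
        rw [Pi.single_eq_of_ne (by omega)]
      have : EM J N (Pi.single (i + 1) (x * c3)) =
          uM J x N (EM J N (Pi.single (i + 1) c3)) + EM J N (Pi.single i c3) := by
        rw [hr]; abel
      rw [this]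
      exact add_mem ⟨_, rfl⟩ (ih p i (by omega) (by omega) c3 h3)

/-- the recursion that solves `x d_i - d_(i+1) = c_i` -/
def dd (c : ℕ → A) : ℕ → A
  | 0 => 0
  | i + 1 => x * dd c i - c i

theorem exists_last (q : QM J (N + 1)) :
    ∃ a : A, q - EM J (N + 1) (Pi.single N a) ∈ LinearMap.range (uM J x (N + 1)) := by
  obtain ⟨c, rfl⟩ := exists_EM J (N + 1) q
  refine ⟨c N - x * dd x c N, EM J (N + 1) (fun i => if i < N + 1 then dd x c i else 0), ?_⟩
  rw [uM_EM _ _ _ _ (by simp), ← map_sub]
  funext i
  rw [EM_apply, EM_apply]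
  congr 1
  have hi := i.2
  rcases Nat.lt_or_ge (i : ℕ) N with h | h
  · have h1 : (i : ℕ) + 1 < N + 1 := by omega
    simp only [hi, h1, if_true, Pi.sub_apply]
    rw [Pi.single_eq_of_ne (by omega)]
    simp only [dd]
    ring
  · have h1 : (i : ℕ) = N := by omega
    have h2 : ¬ ((i : ℕ) + 1 < N + 1) := by omega
    simp only [hi, h2, if_true, if_false, Pi.sub_apply]
    rw [h1, Pi.single_eq_same]
    ring

theorem coker_le : Module.length A (QM J N ⧸ LinearMap.range (uM J x N)) ≤
    Module.length A (A ⧸ (J ⊔ Ideal.span {x}) ^ N) := by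
  cases N with
  | zero =>
    have : Subsingleton (QM J 0 ⧸ LinearMap.range (uM J x 0)) := by
      have : Subsingleton (QM J 0) := inferInstance
      infer_instance
    rw [Module.length_eq_zero]
    simp
  | succ N =>
    let φ : A →ₗ[A] (QM J (N + 1) ⧸ LinearMap.range (uM J x (N + 1))) :=
      ((LinearMap.range (uM J x (N + 1))).mkQ.comp (EM J (N + 1))).comp
        (LinearMap.single A (fun _ : ℕ => A) N)
    have hφ : ∀ a, φ a = (LinearMap.range (uM J x (N + 1))).mkQ (EM J (N + 1) (Pi.single N a)) :=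
      fun a => rfl
    have hsurj : Function.Surjective φ := by
      intro z
      obtain ⟨q, rfl⟩ := Submodule.mkQ_surjective _ z
      obtain ⟨a, ha⟩ := exists_last J x N q
      refine ⟨a, ?_⟩
      rw [hφ, eq_comm, ← sub_eq_zero, ← map_sub, Submodule.mkQ_apply,
        Submodule.Quotient.mk_eq_zero]
      exact ha
    have hker : (J ⊔ Ideal.span {x}) ^ (N + 1) ≤ LinearMap.ker φ := by
      intro c hc
      rw [LinearMap.mem_ker, hφ, Submodule.mkQ_apply, Submodule.Quotient.mk_eq_zero]
      refine single_mem_range J x (N + 1) (N + 1) 0 N (Nat.lt_succ_self N) (by omega) c ?_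
      rw [pow_zero, one_mul]
      exact hc
    refine Module.length_le_of_surjective (Submodule.liftQ _ φ hker) ?_
    intro z
    obtain ⟨a, rfl⟩ := hsurj z
    exact ⟨Submodule.mkQ _ a, rfl⟩

theorem QM_length_ne_top (hJ : Module.length A (A ⧸ J ^ N) ≠ ⊤) :
    Module.length A (QM J N) ≠ ⊤ := by
  rw [Module.length_pi_of_fintype]
  rw [← lt_top_iff_ne_top] at hJ ⊢
  refine WithTop.sum_lt_top.2 fun i _ => ?_
  exact lt_of_le_of_lt (length_quot_anti (Ideal.pow_le_pow_right (by have := i.2; omega))) hJ

theorem uM_lay (q : ∀ i : Fin N, KL J x i) :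
    uM J x N (fun i => ((q i : Lay J i) : A ⧸ J ^ ((i : ℕ) + 1))) = 0 := by
  funext i
  simp only [uM, LinearMap.pi_apply, LinearMap.sub_apply, LinearMap.smul_apply,
    LinearMap.proj_apply, Pi.zero_apply]
  have h1 : x • ((q i : Lay J i) : A ⧸ J ^ ((i : ℕ) + 1)) = 0 := by
    have : x • (q i : Lay J i) = 0 := LinearMap.mem_ker.1 (q i).2
    exact congrArg Subtype.val this
  rw [h1, zero_sub, neg_eq_zero]
  by_cases h : (i : ℕ) + 1 < N
  · rw [dif_pos h]
    obtain ⟨c, hc, he⟩ := (q ⟨(i : ℕ) + 1, h⟩ : Lay J ((i : ℕ) + 1)).2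
    simp only [LinearMap.comp_apply, LinearMap.proj_apply]
    rw [← he]
    change Submodule.mkQ (J ^ ((i : ℕ) + 1)) c = 0
    rw [Submodule.mkQ_apply, Submodule.Quotient.mk_eq_zero]
    exact hc
  · rw [dif_neg h]
    rfl

/-- THE BASIC INEQUALITY. -/
theorem basic (hJ : Module.length A (A ⧸ J ^ N) ≠ ⊤) :
    ∑ i ∈ Finset.range N, Module.length A (KL J x i) ≤
      Module.length A (A ⧸ (J ⊔ Ideal.span {x}) ^ N) := by
  refine le_trans ?_ (coker_le J x N)
  rw [← length_ker_eq (QM_length_ne_top J N hJ) (uM J x N)]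
  rw [Finset.sum_range (fun i => Module.length A (KL J x i)),
    ← Module.length_pi_of_fintype A (fun i : Fin N => KL J x i)]
  let g : (∀ i : Fin N, KL J x i) →ₗ[A] QM J N :=
    LinearMap.pi fun i => ((Lay J i).subtype.comp (KL J x i).subtype).comp
      (LinearMap.proj (R := A) (φ := fun i : Fin N => KL J x i) i)
  refine Module.length_le_of_injective
    (LinearMap.codRestrict (LinearMap.ker (uM J x N)) g (fun q => uM_lay J x N q)) ?_
  intro a b hab
  have h := congrArg Subtype.val hab
  funext i
  have := congrFun h i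
  exact Subtype.ext (Subtype.ext this)

/-- one more element: if `x^a ∈ J` then `ℓ(A/J^N) ≤ a ℓ(A/(J + xA)^N)` -/
theorem step_pow (hJ : Module.length A (A ⧸ J ^ N) ≠ ⊤) (a : ℕ) (ha : x ^ a ∈ J) :
    Module.length A (A ⧸ J ^ N) ≤ a * Module.length A (A ⧸ (J ⊔ Ideal.span {x}) ^ N) := by
  rw [← sum_length_lay J N]
  refine le_trans ?_ (mul_le_mul_right (basic J x N hJ) (a : ℕ∞))
  rw [Finset.mul_sum]
  refine Finset.sum_le_sum fun i _ => ?_
  refine length_le_mul_ker x a ?_
  rintro ⟨m, c, hc, rfl⟩
  apply Subtype.ext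
  change x ^ a • Submodule.mkQ (J ^ (i + 1)) c = 0
  rw [← map_smul, Submodule.mkQ_apply, Submodule.Quotient.mk_eq_zero, smul_eq_mul, pow_succ']
  exact Ideal.mul_mem_mul ha hc

end Q

end Vale.Agent.P202
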