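import Vale.Agent.P202.Core

/-!
P202: the flat step. If `S` is flat over the local ring `R` and `F = S/mS`, then
`ℓ_S(F/xF) ℓ_R(R/m^N) ≤ ℓ_S(S/(mS + xS)^N)`.
-/

namespace Vale.Agent.P202

open IsLocalRing

section Basis

variable (R : Type*) [CommRing R] [IsLocalRing R] [IsNoetherianRing R]

/-- elements of `m^i` that form a basis of `m^i/m^(i+1)` -/
theorem exists_basis (i : ℕ) : ∃ (μ : ℕ) (r : Fin μ → R), (∀ j, r j ∈ maximalIdeal R ^ i) ∧
    Module.length R (Lay (maximalIdeal R) i) ≤ μ ∧
    ∀ c : Fin μ → R, ∑ j, c j * r j ∈ maximalIdeal R ^ (i + 1) → ∀ j, c j ∈ maximalIdeal R := by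
  set m := maximalIdeal R with hm
  let _ : Field (R ⧸ m) := Ideal.Quotient.field m
  let W := (↥(m ^ i) ⧸ (m • ⊤ : Submodule R ↥(m ^ i)))
  have hfinR : Module.Finite R W := inferInstance
  have hfin : Module.Finite (R ⧸ m) W := Module.Finite.of_restrictScalars_finite R (R ⧸ m) W
  let b := Module.finBasis (R ⧸ m) W
  choose r hr using fun j => Submodule.mkQ_surjective (m • ⊤ : Submodule R ↥(m ^ i)) (b j)
  refine ⟨Module.finrank (R ⧸ m) W, fun j => (r j : R), fun j => (r j).2, ?_, ?_⟩
  · have h1 : Module.length R W = Module.finrank (R ⧸ m) W := by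
      rw [Module.length_eq_of_surjective (S := R) (R := R ⧸ m) (M := W)
        Ideal.Quotient.mk_surjective, Module.length_eq_finrank]
    rw [← h1]
    let g : ↥(m ^ i) →ₗ[R] Lay m i :=
      LinearMap.codRestrict _ ((Submodule.mkQ (m ^ (i + 1))).comp (Submodule.subtype _))
        (fun c => ⟨c, c.2, rfl⟩)
    have hg : (m • ⊤ : Submodule R ↥(m ^ i)) ≤ LinearMap.ker g := by
      rw [Submodule.smul_le]
      intro a ha c _
      rw [LinearMap.mem_ker]
      apply Subtype.ext
      change Submodule.mkQ (m ^ (i + 1)) ((a • c : ↥(m ^ i)) : R) = 0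
      rw [Submodule.mkQ_apply, Submodule.Quotient.mk_eq_zero, Submodule.coe_smul, smul_eq_mul,
        pow_succ']
      exact Ideal.mul_mem_mul ha c.2
    refine Module.length_le_of_surjective (Submodule.liftQ _ g hg) ?_
    rintro ⟨_, c, hc, rfl⟩
    exact ⟨Submodule.mkQ _ ⟨c, hc⟩, rfl⟩
  · intro c hc j
    have h0 : (∑ j, c j • r j : ↥(m ^ i)) ∈ (m • ⊤ : Submodule R ↥(m ^ i)) := by
      have : ((∑ j, c j • r j : ↥(m ^ i)) : R) ∈ m • (m ^ i) := by
        rw [smul_eq_mul, ← pow_succ']
        simpa using hc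
      have h2 : (m • ⊤ : Submodule R ↥(m ^ i)) =
          Submodule.comap (Submodule.subtype (m ^ i)) (m • (m ^ i)) := by
        apply Submodule.map_injective_of_injective (Submodule.subtype_injective (m ^ i))
        rw [Submodule.map_smul'', Submodule.map_top, Submodule.range_subtype,
          Submodule.map_comap_subtype, inf_eq_right.2]
        exact Submodule.smul_le_right
      exact h2.ge this
    have h1 : ∑ j, (Ideal.Quotient.mk m (c j)) • b j = 0 := by
      have := (Submodule.Quotient.mk_eq_zero _).2 h0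
      rw [← Submodule.mkQ_apply, map_sum] at this
      rw [← this]
      refine Finset.sum_congr rfl fun j _ => ?_
      rw [map_smul, hr j]
      rfl
    have := (Fintype.linearIndependent_iff.1 b.linearIndependent) _ h1 j
    exact Ideal.Quotient.eq_zero_iff_mem.1 this

end Basis

section Flat

variable {R S : Type*} [CommRing R] [IsLocalRing R] [IsNoetherianRing R] [CommRing S]
  [Algebra R S] [Module.Flat R S]

/-- flatness: a relation `∑ r_j s_j ∈ m^(i+1) S` with `r_j` independent modulo `m^(i+1)` forces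
`s_j ∈ m S` -/
theorem flat_indep {i μ : ℕ} {r : Fin μ → R}
    (hr : ∀ c : Fin μ → R, ∑ j, c j * r j ∈ maximalIdeal R ^ (i + 1) →
      ∀ j, c j ∈ maximalIdeal R) (s : Fin μ → S)
    (hs : ∑ j, algebraMap R S (r j) * s j ∈
      ((maximalIdeal R).map (algebraMap R S)) ^ (i + 1)) (j : Fin μ) :
    s j ∈ (maximalIdeal R).map (algebraMap R S) := by
  rw [← Ideal.map_pow] at hs
  obtain ⟨n, f, g, hfg⟩ := Submodule.mem_span_set'.1 hs
  choose t ht hg using fun l => (g l).2
  have hrel : ∑ l : Fin μ ⊕ Fin n, (Sum.elim r (fun l => - t l) l : R) •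
      (Sum.elim s f l : S) = 0 := by
    rw [Fintype.sum_sum_type]
    simp only [Sum.elim_inl, Sum.elim_inr, neg_smul, Finset.sum_neg_distrib]
    rw [← sub_eq_add_neg, sub_eq_zero]
    simp only [Algebra.smul_def]
    rw [← hfg]
    refine Finset.sum_congr rfl fun l _ => ?_
    rw [hg l, smul_eq_mul, mul_comm]
  obtain ⟨k, a, y, hy, ha⟩ := Module.Flat.isTrivialRelation_of_sum_smul_eq_zero (R := R) (M := S)
    (f := Sum.elim r (fun l => - t l)) (x := Sum.elim s f) hrel
  have hj := hy (Sum.inl j)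
  rw [Sum.elim_inl] at hj
  rw [hj]
  refine Ideal.sum_mem _ fun p _ => ?_
  rw [Algebra.smul_def]
  refine Ideal.mul_mem_right _ _ (Ideal.mem_map_of_mem _ ?_)
  refine hr (fun j => a (Sum.inl j) p) ?_ j
  have := ha p
  rw [Fintype.sum_sum_type] at this
  simp only [Sum.elim_inl, Sum.elim_inr, neg_mul, Finset.sum_neg_distrib] at this
  rw [← sub_eq_add_neg, sub_eq_zero] at this
  have e : ∑ j, a (Sum.inl j) p * r j = ∑ j, r j * a (Sum.inl j) p :=
    Finset.sum_congr rfl fun j _ => mul_comm _ _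
  rw [e, this]
  exact Ideal.sum_mem _ fun l _ => Ideal.mul_mem_right _ _ (ht l)

/-- the kernel of `x` on the layer `m^i S/m^(i+1) S` has length at least `μ_i ℓ(F/xF)` -/
theorem length_KL_ge (x : S) (i : ℕ)
    (hF : Module.length S (S ⧸ (maximalIdeal R).map (algebraMap R S)) ≠ ⊤) :
    Module.length R (Lay (maximalIdeal R) i) *
      Module.length S (S ⧸ ((maximalIdeal R).map (algebraMap R S) ⊔ Ideal.span {x})) ≤
      Module.length S (KL ((maximalIdeal R).map (algebraMap R S)) x i) := by
  obtain ⟨μ, r, hrm, hlen, hr⟩ := exists_basis R i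
  set J := (maximalIdeal R).map (algebraMap R S) with hJdef
  refine (mul_le_mul_left hlen _).trans ?_
  -- the kernel of `x` on `F`
  let lx : (S ⧸ J) →ₗ[S] (S ⧸ J) := LinearMap.lsmul S (S ⧸ J) x
  have h1 : Module.length S (S ⧸ (J ⊔ Ideal.span {x})) ≤ Module.length S (LinearMap.ker lx) := by
    rw [length_ker_eq hF lx]
    let g : (S ⧸ J) →ₗ[S] (S ⧸ (J ⊔ Ideal.span {x})) :=
      Submodule.factor (le_sup_left : J ≤ J ⊔ Ideal.span {x})
    have hg : LinearMap.range lx ≤ LinearMap.ker g := by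
      rintro _ ⟨q, rfl⟩
      obtain ⟨c, rfl⟩ := Submodule.mkQ_surjective _ q
      rw [LinearMap.mem_ker]
      change Submodule.mkQ (J ⊔ Ideal.span {x}) (x * c) = 0
      rw [Submodule.mkQ_apply, Submodule.Quotient.mk_eq_zero]
      exact Ideal.mul_mem_right _ _ (Ideal.mem_sup_right (Ideal.mem_span_singleton_self x))
    refine Module.length_le_of_surjective (Submodule.liftQ _ g hg) ?_
    intro z
    obtain ⟨q, rfl⟩ := Submodule.factor_surjective (le_sup_left : J ≤ J ⊔ Ideal.span {x}) z
    exact ⟨Submodule.mkQ _ q, rfl⟩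
  have hmap : ∀ j, algebraMap R S (r j) ∈ J ^ i := by
    intro j
    rw [hJdef, ← Ideal.map_pow]
    exact Ideal.mem_map_of_mem _ (hrm j)
  have hle : ∀ j, J ≤ Submodule.comap (LinearMap.lsmul S S (algebraMap R S (r j)))
      (J ^ (i + 1)) := by
    intro j c hc
    rw [Submodule.mem_comap, LinearMap.lsmul_apply, smul_eq_mul, pow_succ]
    exact Ideal.mul_mem_mul (hmap j) hc
  let θ : (Fin μ → S ⧸ J) →ₗ[S] S ⧸ J ^ (i + 1) :=
    ∑ j, (Submodule.mapQ J (J ^ (i + 1)) (LinearMap.lsmul S S (algebraMap R S (r j)))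
      (hle j)).comp (LinearMap.proj j)
  have hθ : ∀ s : Fin μ → S, θ (fun j => Submodule.mkQ J (s j)) =
      Submodule.mkQ (J ^ (i + 1)) (∑ j, algebraMap R S (r j) * s j) := by
    intro s
    simp only [θ, LinearMap.sum_apply, LinearMap.comp_apply, LinearMap.proj_apply, map_sum]
    rfl
  have hinj : ∀ f, θ f = 0 → f = 0 := by
    intro f hf
    choose s hs using fun j => Submodule.mkQ_surjective J (f j)
    have e : f = fun j => Submodule.mkQ J (s j) := by
      funext j
      exact (hs j).symm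
    rw [e] at hf ⊢
    rw [hθ, Submodule.mkQ_apply, Submodule.Quotient.mk_eq_zero] at hf
    funext j
    rw [Pi.zero_apply, Submodule.mkQ_apply, Submodule.Quotient.mk_eq_zero]
    exact flat_indep hr s hf j
  let θ' : (Fin μ → LinearMap.ker lx) →ₗ[S] S ⧸ J ^ (i + 1) :=
    θ.comp (LinearMap.pi fun j => (LinearMap.ker lx).subtype.comp (LinearMap.proj j))
  have hθ' : ∀ f, θ' f = θ (fun j => (f j : S ⧸ J)) := fun f => rfl
  have hlay : ∀ f, θ' f ∈ Lay J i := by
    intro f
    rw [hθ']
    choose s hs using fun j => Submodule.mkQ_surjective J (f j : S ⧸ J)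
    have e : (fun j => (f j : S ⧸ J)) = fun j => Submodule.mkQ J (s j) := by
      funext j
      exact (hs j).symm
    rw [e, hθ]
    exact ⟨_, Ideal.sum_mem _ fun j _ => Ideal.mul_mem_right _ _ (hmap j), rfl⟩
  let θ2 : (Fin μ → LinearMap.ker lx) →ₗ[S] Lay J i := LinearMap.codRestrict _ θ' hlay
  have hker : ∀ f, θ2 f ∈ KL J x i := by
    intro f
    rw [KL, LinearMap.mem_ker, LinearMap.lsmul_apply]
    apply Subtype.ext
    change x • θ' f = 0
    rw [← map_smul]
    have : x • f = 0 := by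
      funext j
      apply Subtype.ext
      exact LinearMap.mem_ker.1 (f j).2
    rw [this, map_zero]
  let θ3 : (Fin μ → LinearMap.ker lx) →ₗ[S] KL J x i := LinearMap.codRestrict _ θ2 hker
  have h2 : Module.length S (Fin μ → LinearMap.ker lx) ≤ Module.length S (KL J x i) := by
    refine Module.length_le_of_injective θ3 ?_
    refine (injective_iff_map_eq_zero θ3).2 ?_
    intro f hf
    have h3 : θ' f = 0 := congrArg (fun z : KL J x i => ((z : Lay J i) : S ⧸ J ^ (i + 1))) hf
    rw [hθ'] at h3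
    have h4 := hinj _ h3
    funext j
    apply Subtype.ext
    exact congrFun h4 j
  refine le_trans ?_ h2
  rw [Module.length_pi, ENat.card_eq_coe_fintype_card, Fintype.card_fin]
  exact mul_le_mul_right h1 _

/-- THE FLAT STEP. -/
theorem flat_step (x : S) (N : ℕ)
    (hF : Module.length S (S ⧸ (maximalIdeal R).map (algebraMap R S)) ≠ ⊤)
    (hN : Module.length S (S ⧸ ((maximalIdeal R).map (algebraMap R S)) ^ N) ≠ ⊤) :
    Module.length R (R ⧸ maximalIdeal R ^ N) *
      Module.length S (S ⧸ ((maximalIdeal R).map (algebraMap R S) ⊔ Ideal.span {x})) ≤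
      Module.length S (S ⧸ ((maximalIdeal R).map (algebraMap R S) ⊔ Ideal.span {x}) ^ N) := by
  refine le_trans ?_ (basic _ x N hN)
  rw [← sum_length_lay (maximalIdeal R) N, Finset.sum_mul]
  exact Finset.sum_le_sum fun i _ => length_KL_ge x i hF

end Flat

end Vale.Agent.P202
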