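import Mathlib

/-!
P202: the definitions of the statement.
-/

namespace Vale.Agent.P202

open IsLocalRing

/-- the Hilbert-Samuel function `N ↦ ℓ_A(A/n^N)` of a local ring `A` with maximal ideal `n` -/
noncomputable def hilb (A : Type*) [CommRing A] [IsLocalRing A] (N : ℕ) : ℕ∞ :=
  Module.length A (A ⧸ maximalIdeal A ^ N)

/-- `e` is the Hilbert-Samuel multiplicity of the local ring `A`:
`e = lim d! ℓ_A(A/n^N) / N^d`, where `d = dim A` -/
def IsMult (A : Type*) [CommRing A] [IsLocalRing A] (e : ℝ) : Prop :=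
  ∃ d : ℕ, ringKrullDim A = d ∧
    Filter.Tendsto (fun N : ℕ => (d.factorial : ℝ) * (hilb A N).toNat / (N : ℝ) ^ d)
      Filter.atTop (nhds e)

/-- the ideal `mS + (x_0, ..., x_(i-1))` of the `R`-algebra `S`, `m` the maximal ideal of `R` -/
def Ch (R : Type*) {S : Type*} [CommRing R] [IsLocalRing R] [CommRing S] [Algebra R S]
    (x : ℕ → S) (i : ℕ) : Ideal S :=
  (maximalIdeal R).map (algebraMap R S) ⊔ Ideal.span (x '' Set.Iio i)

end Vale.Agent.P202
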