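import Vale.Agent.P202.Flat
import Vale.Agent.P202.Stat

/-!
P202: Lech's inequality for closed fibres of embedding dimension at most two, and the
dimension-free bound.
-/

namespace Vale.Agent.P202

open IsLocalRing

section Fin

variable {A : Type*} [CommRing A] [IsNoetherianRing A]

theorem lay_ne_top (J : Ideal A) (hJ : Module.length A (A ⧸ J) ≠ ⊤) (i : ℕ) :
    Module.length A (Lay J i) ≠ ⊤ := by
  obtain ⟨g, r, hr⟩ := Submodule.fg_iff_exists_fin_generating_family.1
    (IsNoetherian.noetherian (J ^ i))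
  have hmem : ∀ j, r j ∈ J ^ i := by
    intro j
    rw [← hr]
    exact Submodule.subset_span ⟨j, rfl⟩
  have hle : ∀ j, J ≤ Submodule.comap (LinearMap.lsmul A A (r j)) (J ^ (i + 1)) := by
    intro j c hc
    rw [Submodule.mem_comap, LinearMap.lsmul_apply, smul_eq_mul, pow_succ]
    exact Ideal.mul_mem_mul (hmem j) hc
  let θ : (Fin g → A ⧸ J) →ₗ[A] A ⧸ J ^ (i + 1) :=
    ∑ j, (Submodule.mapQ J (J ^ (i + 1)) (LinearMap.lsmul A A (r j)) (hle j)).comp
      (LinearMap.proj j)
  have hθ : ∀ s : Fin g → A, θ (fun j => Submodule.mkQ J (s j)) =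
      Submodule.mkQ (J ^ (i + 1)) (∑ j, r j * s j) := by
    intro s
    simp only [θ, LinearMap.sum_apply, LinearMap.comp_apply, LinearMap.proj_apply, map_sum]
    rfl
  have hrange : Lay J i ≤ LinearMap.range θ := by
    rintro _ ⟨c, hc, rfl⟩
    change c ∈ J ^ i at hc
    rw [← hr, Submodule.mem_span_range_iff_exists_fun] at hc
    obtain ⟨s, rfl⟩ := hc
    refine ⟨fun j => Submodule.mkQ J (s j), ?_⟩
    rw [hθ]
    congr 1
    exact Finset.sum_congr rfl fun j _ => mul_comm _ _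
  have h1 : Module.length A (Lay J i) ≤ Module.length A (LinearMap.range θ) :=
    Module.length_le_of_injective (Submodule.inclusion hrange) (Submodule.inclusion_injective hrange)
  have h2 : Module.length A (LinearMap.range θ) ≤ Module.length A (Fin g → A ⧸ J) :=
    Module.length_le_of_surjective θ.rangeRestrict θ.surjective_rangeRestrict
  refine ne_top_of_le_ne_top ?_ (h1.trans h2)
  rw [Module.length_pi, ENat.card_eq_coe_fintype_card, Fintype.card_fin]
  exact WithTop.mul_ne_top (ENat.natCast_ne_top g) hJ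

theorem pow_ne_top (J : Ideal A) (hJ : Module.length A (A ⧸ J) ≠ ⊤) (N : ℕ) :
    Module.length A (A ⧸ J ^ N) ≠ ⊤ := by
  rw [← sum_length_lay J N]
  rw [← lt_top_iff_ne_top]
  exact WithTop.sum_lt_top.2 fun i _ => (lay_ne_top J hJ i).lt_top

omit [IsNoetherianRing A] in
theorem length_lt {P Q : Ideal A} (h : P < Q) :
    Module.length A (A ⧸ Q) + 1 ≤ Module.length A (A ⧸ P) := by
  rw [length_eq_sub_add_quot (A := A) (M := A ⧸ P) (Submodule.map (Submodule.mkQ P) Q), add_comm,
    (Submodule.quotientQuotientEquivQuotient P Q h.le).length_eq]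
  gcongr
  rw [Order.one_le_iff_ne_zero, Ne, Module.length_eq_zero_iff]
  intro hs
  obtain ⟨c, hcQ, hcP⟩ := SetLike.exists_of_lt h
  apply hcP
  rw [← Submodule.Quotient.mk_eq_zero]
  have : (⟨Submodule.mkQ P c, c, hcQ, rfl⟩ : Submodule.map (Submodule.mkQ P) Q) = 0 :=
    Subsingleton.elim _ _
  exact congrArg Subtype.val this

/-- in a Noetherian local ring, `n^a ⊆ I` if `A/I` has length `a` -/
theorem pow_length_le [IsLocalRing A] (I : Ideal A) (a : ℕ)
    (ha : Module.length A (A ⧸ I) = a) : maximalIdeal A ^ a ≤ I := by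
  by_contra hcon
  have hi : ∀ i ≤ a, ¬ maximalIdeal A ^ i ≤ I := fun i hi h =>
    hcon ((Ideal.pow_le_pow_right hi).trans h)
  have hlen : ∀ i ≤ a + 1, (i : ℕ∞) ≤ Module.length A (A ⧸ (maximalIdeal A ^ i ⊔ I)) := by
    intro i
    induction i with
    | zero => intro _; simp
    | succ i ih =>
      intro h
      have h1 := ih (by omega)
      have hlt : maximalIdeal A ^ (i + 1) ⊔ I < maximalIdeal A ^ i ⊔ I := by
        refine lt_of_le_of_ne (sup_le_sup_right (Ideal.pow_le_pow_right (Nat.le_succ i)) I) ?_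
        intro he
        apply hi i (by omega)
        refine Submodule.le_of_le_smul_of_le_jacobson_bot (I := maximalIdeal A)
          (IsNoetherian.noetherian _) (maximalIdeal_le_jacobson _) ?_
        rw [smul_eq_mul, ← pow_succ', sup_comm, he]
        exact le_sup_left
      have := length_lt hlt
      push_cast
      exact le_trans (by gcongr) this
  have h1 := hlen (a + 1) le_rfl
  have h2 : Module.length A (A ⧸ (maximalIdeal A ^ (a + 1) ⊔ I)) ≤ Module.length A (A ⧸ I) :=
    length_quot_anti le_sup_right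
  have h3 := h1.trans (h2.trans ha.le)
  exact absurd (ENat.natCast_le_natCast.1 h3) (by omega)

end Fin

section Main

variable {R S : Type*} [CommRing R] [IsLocalRing R] [IsNoetherianRing R] [CommRing S]
  [IsLocalRing S] [IsNoetherianRing S] [Algebra R S] [Module.Flat R S]

omit [IsNoetherianRing R] [IsLocalRing S] [IsNoetherianRing S] [Module.Flat R S] in
theorem Ch_succ (x : ℕ → S) (i : ℕ) : Ch R x (i + 1) = Ch R x i ⊔ Ideal.span {x i} := by
  have : x '' Set.Iio (i + 1) = x '' Set.Iio i ∪ {x i} := by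
    ext z
    simp only [Set.mem_image, Set.mem_Iio, Set.mem_union, Set.mem_singleton_iff]
    constructor
    · rintro ⟨j, hj, rfl⟩
      rcases Nat.lt_succ_iff_lt_or_eq.1 hj with h | h
      · exact Or.inl ⟨j, h, rfl⟩
      · exact Or.inr (by rw [h])
    · rintro (⟨j, hj, rfl⟩ | rfl)
      · exact ⟨j, by omega, rfl⟩
      · exact ⟨i, by omega, rfl⟩
  rw [Ch, Ch, this, Ideal.span_union, sup_assoc]

omit [IsNoetherianRing R] [IsLocalRing S] [IsNoetherianRing S] [Module.Flat R S] in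
theorem Ch_one (x : ℕ → S) :
    Ch R x 1 = (maximalIdeal R).map (algebraMap R S) ⊔ Ideal.span {x 0} := by
  rw [Ch_succ, Ch]
  simp

omit [IsNoetherianRing R] [IsLocalRing S] [IsNoetherianRing S] [Module.Flat R S] in
theorem le_Ch (x : ℕ → S) (i : ℕ) : (maximalIdeal R).map (algebraMap R S) ≤ Ch R x i :=
  le_sup_left

omit [IsLocalRing S] in
/-- the dimension-free bound for the ideal `mS + (x_0, ..., x_s)` -/
theorem chain_bound (hF : Module.length S (S ⧸ (maximalIdeal R).map (algebraMap R S)) ≠ ⊤)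
    (x : ℕ → S) (a : ℕ → ℕ) (s : ℕ)
    (ha : ∀ i < s, x (i + 1) ^ a (i + 1) ∈ Ch R x (i + 1)) (N : ℕ) :
    Module.length R (R ⧸ maximalIdeal R ^ N) * Module.length S (S ⧸ Ch R x 1) ≤
      ((∏ i ∈ Finset.range s, a (i + 1) : ℕ) : ℕ∞) *
        Module.length S (S ⧸ Ch R x (s + 1) ^ N) := by
  induction s with
  | zero =>
    rw [Finset.prod_range_zero, Nat.cast_one, one_mul, zero_add, Ch_one]
    exact flat_step (R := R) (x 0) N hF (pow_ne_top _ hF N)
  | succ s ih =>
    refine (ih fun i hi => ha i (by omega)).trans ?_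
    rw [Finset.prod_range_succ, Nat.cast_mul, mul_assoc]
    gcongr
    rw [Ch_succ x (s + 1)]
    exact step_pow (Ch R x (s + 1)) (x (s + 1)) N
      (pow_ne_top _ (ne_top_of_le_ne_top hF (length_quot_anti (le_Ch x (s + 1)))) N)
      (a (s + 1)) (ha s (by omega))

omit [IsNoetherianRing R] [IsLocalRing S] [IsNoetherianRing S] [Module.Flat R S] [IsLocalRing R]
  [CommRing R] [Algebra R S] in
/-- if `n^(k+1) ⊆ J n^k` then `n^(N+k) ⊆ J^N` -/
theorem pow_le_of_reduction (n J : Ideal S) (k : ℕ) (h : n ^ (k + 1) ≤ J * n ^ k) (N : ℕ) :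
    n ^ (N + k) ≤ J ^ N := by
  have h2 : n ^ (N + k) ≤ J ^ N * n ^ k := by
    induction N with
    | zero => simp
    | succ N ih =>
      calc n ^ (N + 1 + k) = n * n ^ (N + k) := by rw [← pow_succ']; congr 1; ring
        _ ≤ n * (J ^ N * n ^ k) := by gcongr
        _ = J ^ N * n ^ (k + 1) := by rw [pow_succ]; ring
        _ ≤ J ^ N * (J * n ^ k) := by gcongr
        _ = J ^ (N + 1) * n ^ k := by rw [pow_succ]; ring
  exact h2.trans Ideal.mul_le_left

/-- two elements: `ℓ(R/m^N) ≤ ℓ(S/(mS + (x, y))^N)` for all `x, y` in the maximal ideal of `S` -/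
theorem two_elements [IsLocalHom (algebraMap R S)]
    (hF : Module.length S (S ⧸ (maximalIdeal R).map (algebraMap R S)) ≠ ⊤)
    (x y : S) (hx : x ∈ maximalIdeal S) (hy : y ∈ maximalIdeal S) (N : ℕ) :
    Module.length R (R ⧸ maximalIdeal R ^ N) ≤
      Module.length S (S ⧸ ((maximalIdeal R).map (algebraMap R S) ⊔ Ideal.span {x, y}) ^ N) := by
  set J := (maximalIdeal R).map (algebraMap R S) with hJ
  set J1 := J ⊔ Ideal.span {x} with hJ1
  have hJ1t : Module.length S (S ⧸ J1) ≠ ⊤ :=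
    ne_top_of_le_ne_top hF (length_quot_anti le_sup_left)
  have h1 := flat_step (R := R) x N hF (pow_ne_top J hF N)
  rw [← hJ, ← hJ1] at h1
  obtain ⟨a, ha⟩ := ENat.ne_top_iff_exists.1 hJ1t
  have hya : y ^ a ∈ J1 := pow_length_le J1 a ha.symm (Ideal.pow_mem_pow hy a)
  have h2 := step_pow J1 y N (pow_ne_top J1 hJ1t N) a hya
  have e : J ⊔ Ideal.span {x, y} = J1 ⊔ Ideal.span {y} := by
    rw [hJ1, sup_assoc, ← Ideal.span_union, Set.singleton_union]
  rw [← ha] at h1
  rw [e]
  have h3 := h1.trans h2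
  have hJn : J ≤ maximalIdeal S := by
    rw [hJ, Ideal.map_le_iff_le_comap]
    intro r hr
    rw [Ideal.mem_comap, mem_maximalIdeal, mem_nonunits_iff]
    intro hu
    exact (mem_maximalIdeal r).1 hr (isUnit_of_map_unit (algebraMap R S) r hu)
  have ha0 : (a : ℕ∞) ≠ 0 := by
    rw [ha, Ne, Module.length_eq_zero_iff]
    intro hs
    have h4 : J1 = ⊤ := Ideal.Quotient.subsingleton_iff.1 hs
    have h5 : J1 ≤ maximalIdeal S :=
      sup_le hJn ((Ideal.span_singleton_le_iff_mem _).2 hx)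
    rw [h4, top_le_iff] at h5
    exact (maximalIdeal.isMaximal S).ne_top h5
  rw [mul_comm] at h3
  exact (ENat.mul_le_mul_left_iff ha0 (ENat.natCast_ne_top a)).1 h3

omit [IsNoetherianRing R] [Module.Flat R S] [IsLocalRing S] [IsNoetherianRing S] in
theorem Ch_mono (x : ℕ → S) {i j : ℕ} (h : i ≤ j) : Ch R x i ≤ Ch R x j :=
  sup_le_sup_left (Ideal.span_mono (Set.image_mono (Set.Iio_subset_Iio h))) _

/-- the bound `t^(s-2)` if `n^t ⊆ mS` -/
theorem pow_bound [IsLocalHom (algebraMap R S)]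
    (hF : Module.length S (S ⧸ (maximalIdeal R).map (algebraMap R S)) ≠ ⊤)
    (x : ℕ → S) (t s : ℕ) (ht : maximalIdeal S ^ t ≤ (maximalIdeal R).map (algebraMap R S))
    (hx : ∀ i < s + 2, x i ∈ maximalIdeal S) (N : ℕ) :
    Module.length R (R ⧸ maximalIdeal R ^ N) ≤
      ((t ^ s : ℕ) : ℕ∞) * Module.length S (S ⧸ Ch R x (s + 2) ^ N) := by
  have hfin : ∀ i, Module.length S (S ⧸ Ch R x i) ≠ ⊤ := fun i =>
    ne_top_of_le_ne_top hF (length_quot_anti (le_Ch x i))
  have h1 := chain_bound (R := R) hF x (fun _ => t) s (fun i hi =>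
    le_Ch x (i + 1) (ht (Ideal.pow_mem_pow (hx (i + 1) (by omega)) t))) N
  rw [Finset.prod_const, Finset.card_range] at h1
  obtain ⟨a, ha⟩ := ENat.ne_top_iff_exists.1 (hfin (s + 1))
  have hya : x (s + 1) ^ a ∈ Ch R x (s + 1) :=
    pow_length_le (Ch R x (s + 1)) a ha.symm (Ideal.pow_mem_pow (hx (s + 1) (by omega)) a)
  have h2 := step_pow (Ch R x (s + 1)) (x (s + 1)) N (pow_ne_top _ (hfin (s + 1)) N) a hya
  rw [← Ch_succ x (s + 1)] at h2
  have h3 : (a : ℕ∞) ≤ Module.length S (S ⧸ Ch R x 1) := by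
    rw [ha]
    exact length_quot_anti (Ch_mono x (by omega))
  have hJn : (maximalIdeal R).map (algebraMap R S) ≤ maximalIdeal S := by
    rw [Ideal.map_le_iff_le_comap]
    intro r hr
    rw [Ideal.mem_comap, mem_maximalIdeal, mem_nonunits_iff]
    intro hu
    exact (mem_maximalIdeal r).1 hr (isUnit_of_map_unit (algebraMap R S) r hu)
  have ha0 : (a : ℕ∞) ≠ 0 := by
    rw [ha, Ne, Module.length_eq_zero_iff]
    intro hs
    have h4 : Ch R x (s + 1) = ⊤ := Ideal.Quotient.subsingleton_iff.1 hs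
    have h5 : Ch R x (s + 1) ≤ maximalIdeal S := by
      refine sup_le hJn (Ideal.span_le.2 ?_)
      rintro _ ⟨i, hi, rfl⟩
      exact hx i (lt_of_lt_of_le hi (by omega))
    rw [h4, top_le_iff] at h5
    exact (maximalIdeal.isMaximal S).ne_top h5
  have h4 : Module.length R (R ⧸ maximalIdeal R ^ N) * (a : ℕ∞) ≤
      ((t ^ s : ℕ) : ℕ∞) * (a * Module.length S (S ⧸ Ch R x (s + 2) ^ N)) :=
    (mul_le_mul_right h3 _).trans (h1.trans (mul_le_mul_right h2 _))
  have h5 : (a : ℕ∞) * Module.length R (R ⧸ maximalIdeal R ^ N) ≤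
      a * (((t ^ s : ℕ) : ℕ∞) * Module.length S (S ⧸ Ch R x (s + 2) ^ N)) := by
    calc (a : ℕ∞) * Module.length R (R ⧸ maximalIdeal R ^ N)
        = Module.length R (R ⧸ maximalIdeal R ^ N) * (a : ℕ∞) := mul_comm _ _
      _ ≤ ((t ^ s : ℕ) : ℕ∞) * (a * Module.length S (S ⧸ Ch R x (s + 2) ^ N)) := h4
      _ = a * (((t ^ s : ℕ) : ℕ∞) * Module.length S (S ⧸ Ch R x (s + 2) ^ N)) := by ring
  exact (ENat.mul_le_mul_left_iff ha0 (ENat.natCast_ne_top a)).1 h5

end Main

end Vale.Agent.P202
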