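import Vale.Agent.P202.Main

/-!
P202: multiplicities.
-/

namespace Vale.Agent.P202

open IsLocalRing Filter Topology

section Dim

variable {R S : Type*} [CommRing R] [IsLocalRing R] [IsNoetherianRing R] [CommRing S]
  [IsLocalRing S] [IsNoetherianRing S] [Algebra R S] [Module.Flat R S]
  [IsLocalHom (algebraMap R S)]

omit [IsNoetherianRing R] [IsNoetherianRing S] [Module.Flat R S] in
theorem map_le : (maximalIdeal R).map (algebraMap R S) ≤ maximalIdeal S := by
  rw [Ideal.map_le_iff_le_comap]
  intro r hr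
  rw [Ideal.mem_comap, mem_maximalIdeal, mem_nonunits_iff]
  intro hu
  exact (mem_maximalIdeal r).1 hr (isUnit_of_map_unit (algebraMap R S) r hu)

/-- if `dim S = dim R` then the closed fibre has finite length -/
theorem fibre_ne_top (hdim : ringKrullDim S = ringKrullDim R) :
    Module.length S (S ⧸ (maximalIdeal R).map (algebraMap R S)) ≠ ⊤ := by
  set J := (maximalIdeal R).map (algebraMap R S) with hJ
  have hJn : J ≤ maximalIdeal S := map_le
  have hJt : J ≠ ⊤ := ne_top_of_le_ne_top (maximalIdeal.isMaximal S).ne_top hJn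
  have : Nontrivial (S ⧸ J) := Ideal.Quotient.nontrivial_iff.2 hJt
  have hloc : IsLocalRing (S ⧸ J) :=
    IsLocalRing.of_surjective' (Ideal.Quotient.mk J) Ideal.Quotient.mk_surjective
  have h1 := Ideal.height_eq_height_add_of_liesOver_of_hasGoingDown (maximalIdeal R)
    (maximalIdeal S)
  rw [← hJ] at h1
  have hR := maximalIdeal_height_eq_ringKrullDim (R := R)
  have hS := maximalIdeal_height_eq_ringKrullDim (R := S)
  have hF := maximalIdeal_height_eq_ringKrullDim (R := S ⧸ J)
  have h2 : (maximalIdeal S).height = (maximalIdeal R).height := by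
    apply WithBot.coe_injective
    rw [hS, hR, hdim]
  have h3 : (maximalIdeal R).height ≠ ⊤ := Ideal.height_ne_top (maximalIdeal.isMaximal R).ne_top
  have h4 : ((maximalIdeal S).map (Ideal.Quotient.mk J)).height = 0 := by
    rw [h2] at h1
    lift (maximalIdeal R).height to ℕ using h3 with r
    have h5 : (r : ℕ∞) + 0 = r + ((maximalIdeal S).map (Ideal.Quotient.mk J)).height := by
      rw [add_zero]; exact h1
    exact (WithTop.add_left_cancel (ENat.natCast_ne_top r) h5).symm
  have h5 : (maximalIdeal S).map (Ideal.Quotient.mk J) = maximalIdeal (S ⧸ J) := by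
    have := ((maximalIdeal.isMaximal S).map_of_surjective_of_ker_le
      (f := Ideal.Quotient.mk J) Ideal.Quotient.mk_surjective (by rw [Ideal.mk_ker]; exact hJn))
    exact IsLocalRing.eq_maximalIdeal this
  rw [h5] at h4
  rw [h4] at hF
  have h6 : Ring.KrullDimLE 0 (S ⧸ J) :=
    ringKrullDimZero_iff_ringKrullDim_eq_zero.2 hF.symm
  have h7 : IsArtinianRing (S ⧸ J) :=
    isArtinianRing_iff_isNoetherianRing_krullDimLE_zero.2 ⟨inferInstance, h6⟩
  rw [Module.length_eq_of_surjective (S := S) (R := S ⧸ J) (M := S ⧸ J)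
    Ideal.Quotient.mk_surjective]
  exact Module.length_ne_top

theorem hilb_ne_top (A : Type*) [CommRing A] [IsLocalRing A] [IsNoetherianRing A] (N : ℕ) :
    hilb A N ≠ ⊤ := by
  refine pow_ne_top (maximalIdeal A) ?_ N
  have h : IsArtinianRing (A ⧸ maximalIdeal A) := by
    let _ : Field (A ⧸ maximalIdeal A) := Ideal.Quotient.field _
    infer_instance
  rw [Module.length_eq_of_surjective (S := A) (R := A ⧸ maximalIdeal A)
    (M := A ⧸ maximalIdeal A) Ideal.Quotient.mk_surjective]
  exact Module.length_ne_top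

end Dim

/-- from Hilbert functions to multiplicities -/
theorem mult_le {R S : Type*} [CommRing R] [IsLocalRing R] [IsNoetherianRing R] [CommRing S]
    [IsLocalRing S] [IsNoetherianRing S] (hdim : ringKrullDim S = ringKrullDim R)
    (c c' k : ℕ) (h : ∀ N, hilb R N * c ≤ c' * hilb S (N + k)) {eR eS : ℝ}
    (hR : IsMult R eR) (hS : IsMult S eS) : (c : ℝ) * eR ≤ c' * eS := by
  obtain ⟨d, hd, hR⟩ := hR
  obtain ⟨d', hd', hS⟩ := hS
  have hdd : d' = d := by
    rw [hdim, hd] at hd'
    exact_mod_cast hd'.symm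
  subst hdd
  have h1 : ∀ N, (c : ℝ) * (hilb R N).toNat ≤ c' * (hilb S (N + k)).toNat := by
    intro N
    have := h N
    have h2 := hilb_ne_top R N
    have h3 := hilb_ne_top S (N + k)
    lift hilb R N to ℕ using h2 with u
    lift hilb S (N + k) to ℕ using h3 with v
    have h4 : u * c ≤ c' * v := by exact_mod_cast this
    simp only [ENat.toNat_natCast]
    rw [mul_comm]
    exact_mod_cast h4
  have hSk : Tendsto (fun N : ℕ => (d'.factorial : ℝ) * (hilb S (N + k)).toNat /
      ((N + k : ℕ) : ℝ) ^ d') atTop (𝓝 eS) := (tendsto_add_atTop_iff_nat k).2 hS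
  have hrat : Tendsto (fun N : ℕ => (((N + k : ℕ) : ℝ) / N) ^ d') atTop (𝓝 1) := by
    have h0 : Tendsto (fun N : ℕ => ((N + k : ℕ) : ℝ) / N) atTop (𝓝 1) := by
      have h2 : Tendsto (fun N : ℕ => 1 + (k : ℝ) / N) atTop (𝓝 (1 + 0)) :=
        tendsto_const_nhds.add (tendsto_const_div_atTop_nhds_zero_nat (k : ℝ))
      rw [add_zero] at h2
      refine h2.congr' ?_
      filter_upwards [eventually_gt_atTop 0] with N hN
      have : (N : ℝ) ≠ 0 := by positivity
      field_simp
      push_cast
      ring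
    simpa using h0.pow d'
  have hSk2 := (hSk.mul hrat).const_mul (c' : ℝ)
  rw [mul_one] at hSk2
  refine le_of_tendsto_of_tendsto (hR.const_mul (c : ℝ)) hSk2 ?_
  filter_upwards [eventually_gt_atTop 0] with N hN
  have hN0 : (0 : ℝ) < N := by positivity
  have hNk : (0 : ℝ) < ((N + k : ℕ) : ℝ) := by positivity
  have e1 : (c : ℝ) * ((d'.factorial : ℝ) * (hilb R N).toNat / (N : ℝ) ^ d') =
      (d'.factorial : ℝ) * (c * (hilb R N).toNat) / (N : ℝ) ^ d' := by ring
  have e2 : (c' : ℝ) * ((d'.factorial : ℝ) * (hilb S (N + k)).toNat / ((N + k : ℕ) : ℝ) ^ d' *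
      (((N + k : ℕ) : ℝ) / N) ^ d') =
      (d'.factorial : ℝ) * (c' * (hilb S (N + k)).toNat) / (N : ℝ) ^ d' := by
    rw [div_pow]
    field_simp
  rw [e1, e2]
  exact div_le_div_of_nonneg_right (mul_le_mul_of_nonneg_left (h1 N) (by positivity))
    (by positivity)

end Vale.Agent.P202
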