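import Vale.Agent.P202.Mult

/-!
P202: the socle of the closed fibre. If `𝔰 n ⊆ mS` and `𝔰` is not generated modulo `mS` by one
element, then `𝔰 n ⊆ m n`.
-/

namespace Vale.Agent.P202

open IsLocalRing

theorem exists_basis_gen (R : Type*) [CommRing R] [IsLocalRing R] [IsNoetherianRing R] :
    ∃ (μ : ℕ) (r : Fin μ → R), (∀ j, r j ∈ maximalIdeal R) ∧
    maximalIdeal R ≤ Ideal.span (Set.range r) ⊔ maximalIdeal R ^ 2 ∧
    ∀ c : Fin μ → R, ∑ j, c j * r j ∈ maximalIdeal R ^ (1 + 1) → ∀ j, c j ∈ maximalIdeal R := by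
  set m := maximalIdeal R with hm
  let _ : Field (R ⧸ m) := Ideal.Quotient.field m
  let W := (↥m ⧸ (m • ⊤ : Submodule R ↥m))
  have hfinR : Module.Finite R W := inferInstance
  have hfin : Module.Finite (R ⧸ m) W := Module.Finite.of_restrictScalars_finite R (R ⧸ m) W
  let b := Module.finBasis (R ⧸ m) W
  have hcomap : ∀ c : ↥m, c ∈ (m • ⊤ : Submodule R ↥m) ↔ (c : R) ∈ m ^ 2 := by
    intro c
    have h2 : (m • ⊤ : Submodule R ↥m) = Submodule.comap (Submodule.subtype m) (m • m) := by
      apply Submodule.map_injective_of_injective (Submodule.subtype_injective m)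
      rw [Submodule.map_smul'', Submodule.map_top, Submodule.range_subtype,
        Submodule.map_comap_subtype, inf_eq_right.2]
      exact Submodule.smul_le_right
    rw [pow_two, ← smul_eq_mul]
    exact ⟨fun h => h2.le h, fun h => h2.ge h⟩
  choose r hr using fun j => Submodule.mkQ_surjective (m • ⊤ : Submodule R ↥m) (b j)
  refine ⟨Module.finrank (R ⧸ m) W, fun j => (r j : R), fun j => (r j).2, ?_, ?_⟩
  · intro c hc
    let cc : ↥m := ⟨c, hc⟩
    choose a ha using fun j => Ideal.Quotient.mk_surjective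
      (b.repr (Submodule.mkQ (m • ⊤ : Submodule R ↥m) cc) j)
    have h1 : Submodule.mkQ (m • ⊤ : Submodule R ↥m) (cc - ∑ j, a j • r j) = 0 := by
      rw [map_sub, map_sum, sub_eq_zero]
      conv_lhs => rw [← b.sum_repr (Submodule.mkQ (m • ⊤ : Submodule R ↥m) cc)]
      refine Finset.sum_congr rfl fun j _ => ?_
      rw [map_smul, hr j, ← ha j]
      rfl
    rw [Submodule.mkQ_apply, Submodule.Quotient.mk_eq_zero, hcomap] at h1
    have h2 : c = (∑ j, a j * (r j : R)) + ((cc - ∑ j, a j • r j : ↥m) : R) := by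
      simp [cc]
    rw [h2]
    refine Submodule.add_mem_sup (Ideal.sum_mem _ fun j _ => Ideal.mul_mem_left _ _
      (Ideal.subset_span ⟨j, rfl⟩)) h1
  · intro c hc j
    have h0 : (∑ j, c j • r j : ↥m) ∈ (m • ⊤ : Submodule R ↥m) := by
      rw [hcomap]
      simpa using hc
    have h1 : ∑ j, (Ideal.Quotient.mk m (c j)) • b j = 0 := by
      have := (Submodule.Quotient.mk_eq_zero _).2 h0
      rw [← Submodule.mkQ_apply, map_sum] at this
      rw [← this]
      refine Finset.sum_congr rfl fun j _ => ?_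
      rw [map_smul, hr j]
      rfl
    have := (Fintype.linearIndependent_iff.1 b.linearIndependent) _ h1 j
    exact Ideal.Quotient.eq_zero_iff_mem.1 this

section Main

variable {R S : Type*} [CommRing R] [IsLocalRing R] [IsNoetherianRing R] [CommRing S]
  [IsLocalRing S] [Algebra R S] [Module.Flat R S] [IsLocalHom (algebraMap R S)]

/-- the main point: `w (u v) = v (w u)` -/
theorem mul_mem_flat (u v w : S)
    (huv : u * v ∈ (maximalIdeal R).map (algebraMap R S))
    (hwu : w * u ∈ (maximalIdeal R).map (algebraMap R S))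
    (hw : w ∉ (maximalIdeal R).map (algebraMap R S) ⊔ Ideal.span {v}) :
    u * v ∈ (maximalIdeal R).map (algebraMap R S) * maximalIdeal S := by
  obtain ⟨μ, r, hrm, hgen, hind⟩ := exists_basis_gen R
  set J := (maximalIdeal R).map (algebraMap R S) with hJ
  have hJn : J ≤ maximalIdeal S := map_le
  have hgenS : J ≤ Ideal.span (Set.range fun j => algebraMap R S (r j)) ⊔ J ^ 2 := by
    have := Ideal.map_mono (f := algebraMap R S) hgen
    rw [Ideal.map_sup, Ideal.map_span, Ideal.map_pow, ← Set.range_comp] at this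
    exact this
  have hdec : ∀ z ∈ J, ∃ s : Fin μ → S, z - ∑ j, algebraMap R S (r j) * s j ∈ J ^ 2 := by
    intro z hz
    obtain ⟨p, hp, q, hq, rfl⟩ := Submodule.mem_sup.1 (hgenS hz)
    obtain ⟨s, rfl⟩ := Ideal.mem_span_range_iff_exists_fun.1 hp
    refine ⟨s, ?_⟩
    have : ∑ j, s j * algebraMap R S (r j) + q - ∑ j, algebraMap R S (r j) * s j = q := by
      have e : ∑ j, s j * algebraMap R S (r j) = ∑ j, algebraMap R S (r j) * s j :=
        Finset.sum_congr rfl fun j _ => mul_comm _ _
      rw [e]; ring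
    rw [this]
    exact hq
  obtain ⟨s, hs⟩ := hdec _ huv
  obtain ⟨s', hs'⟩ := hdec _ hwu
  have hrel : ∀ j, w * s j - v * s' j ∈ J := by
    refine flat_indep hind (fun j => w * s j - v * s' j) ?_
    have e : ∑ j, algebraMap R S (r j) * (w * s j - v * s' j) =
        v * (w * u - ∑ j, algebraMap R S (r j) * s' j) -
          w * (u * v - ∑ j, algebraMap R S (r j) * s j) := by
      simp only [mul_sub, Finset.mul_sum, Finset.sum_sub_distrib]
      have e1 : ∑ j, algebraMap R S (r j) * (w * s j) = ∑ j, w * (algebraMap R S (r j) * s j) :=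
        Finset.sum_congr rfl fun j _ => by ring
      have e2 : ∑ j, algebraMap R S (r j) * (v * s' j) = ∑ j, v * (algebraMap R S (r j) * s' j) :=
        Finset.sum_congr rfl fun j _ => by ring
      rw [e1, e2]; ring
    rw [e]
    exact Ideal.sub_mem _ (Ideal.mul_mem_left _ _ hs') (Ideal.mul_mem_left _ _ hs)
  have hsn : ∀ j, s j ∈ maximalIdeal S := by
    intro j
    by_contra hcon
    have hu : IsUnit (s j) := by
      by_contra h
      exact hcon ((mem_maximalIdeal _).2 h)
    apply hw
    obtain ⟨t, ht⟩ := hu.exists_right_inv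
    have e : (w * s j - v * s' j) * t + s' j * t * v = w := by
      have h1 : (w * s j - v * s' j) * t + s' j * t * v = w * (s j * t) := by ring
      rw [h1, ht, mul_one]
    rw [← e]
    exact Submodule.add_mem_sup (Ideal.mul_mem_right _ _ (hrel j))
      (Ideal.mul_mem_left _ _ (Ideal.mem_span_singleton_self v))
  have e : u * v = ∑ j, algebraMap R S (r j) * s j +
      (u * v - ∑ j, algebraMap R S (r j) * s j) := by ring
  rw [e]
  refine Ideal.add_mem _ (Ideal.sum_mem _ fun j _ => Ideal.mul_mem_mul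
    (Ideal.mem_map_of_mem _ (hrm j)) (hsn j)) ?_
  rw [pow_two] at hs
  exact Ideal.mul_mono_right hJn hs

/-- if `𝔰 n ⊆ mS` and `𝔰` is not generated modulo `mS` by one element, then `𝔰 n ⊆ m n` -/
theorem socle_mul_le (I : Ideal S)
    (hI : I * maximalIdeal S ≤ (maximalIdeal R).map (algebraMap R S))
    (hI2 : ∀ v ∈ I, ¬ I ≤ (maximalIdeal R).map (algebraMap R S) ⊔ Ideal.span {v}) :
    I * maximalIdeal S ≤ (maximalIdeal R).map (algebraMap R S) * maximalIdeal S := by
  rw [Ideal.mul_le]
  intro v hv u hu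
  obtain ⟨w, hw, hw2⟩ := SetLike.not_le_iff_exists.1 (hI2 v hv)
  rw [mul_comm v u]
  have h1 : u * v ∈ (maximalIdeal R).map (algebraMap R S) := by
    rw [mul_comm u v]
    exact hI (Ideal.mul_mem_mul hv hu)
  exact mul_mem_flat (R := R) u v w h1 (hI (Ideal.mul_mem_mul hw hu)) hw2

/-- hence `𝔰^(N+1) ⊆ (mS)^N` -/
theorem socle_pow_le (I : Ideal S) (hIn : I ≤ maximalIdeal S)
    (hI : I * maximalIdeal S ≤ (maximalIdeal R).map (algebraMap R S))
    (hI2 : ∀ v ∈ I, ¬ I ≤ (maximalIdeal R).map (algebraMap R S) ⊔ Ideal.span {v}) (N : ℕ) :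
    I ^ (N + 1) ≤ (maximalIdeal R).map (algebraMap R S) ^ N := by
  have h := socle_mul_le (R := R) I hI hI2
  have h2 : I ^ N * maximalIdeal S ≤
      (maximalIdeal R).map (algebraMap R S) ^ N * maximalIdeal S := by
    induction N with
    | zero => simp
    | succ N ih =>
      calc I ^ (N + 1) * maximalIdeal S = I ^ N * (I * maximalIdeal S) := by
            rw [pow_succ, mul_assoc]
        _ ≤ I ^ N * ((maximalIdeal R).map (algebraMap R S) * maximalIdeal S) :=
            Ideal.mul_mono_right h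
        _ = (maximalIdeal R).map (algebraMap R S) * (I ^ N * maximalIdeal S) := by
            rw [mul_left_comm]
        _ ≤ (maximalIdeal R).map (algebraMap R S) *
              ((maximalIdeal R).map (algebraMap R S) ^ N * maximalIdeal S) :=
            Ideal.mul_mono_right ih
        _ = (maximalIdeal R).map (algebraMap R S) ^ (N + 1) * maximalIdeal S := by
            rw [pow_succ', mul_assoc]
  calc I ^ (N + 1) = I ^ N * I := pow_succ I N
    _ ≤ I ^ N * maximalIdeal S := Ideal.mul_mono_right hIn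
    _ ≤ _ := h2
    _ ≤ _ := Ideal.mul_le_left

end Main

section Bound

variable {R S : Type*} [CommRing R] [IsLocalRing R] [IsNoetherianRing R] [CommRing S]
  [IsLocalRing S] [IsNoetherianRing S] [Algebra R S] [Module.Flat R S]
  [IsLocalHom (algebraMap R S)]

theorem fibre_mul_le (hF : Module.length S (S ⧸ (maximalIdeal R).map (algebraMap R S)) ≠ ⊤)
    (N : ℕ) :
    Module.length R (R ⧸ maximalIdeal R ^ N) *
      Module.length S (S ⧸ (maximalIdeal R).map (algebraMap R S)) ≤
      Module.length S (S ⧸ ((maximalIdeal R).map (algebraMap R S)) ^ N) := by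
  have h := flat_step (R := R) (0 : S) N hF (pow_ne_top _ hF N)
  have e : (maximalIdeal R).map (algebraMap R S) ⊔ Ideal.span {(0 : S)} =
      (maximalIdeal R).map (algebraMap R S) := by
    rw [Ideal.span_singleton_eq_bot.2 rfl, sup_bot_eq]
  rw [e] at h
  exact h

/-- the chain of ideals above `I` -/
theorem chain_above (I : Ideal S) (hI : Module.length S (S ⧸ I) ≠ ⊤) (x : ℕ → S) (a : ℕ → ℕ)
    (r : ℕ) (ha : ∀ i < r, x i ^ a i ∈ I ⊔ Ideal.span (x '' Set.Iio i)) (N : ℕ) :
    Module.length S (S ⧸ I ^ N) ≤ ((∏ i ∈ Finset.range r, a i : ℕ) : ℕ∞) *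
      Module.length S (S ⧸ (I ⊔ Ideal.span (x '' Set.Iio r)) ^ N) := by
  induction r with
  | zero =>
    have e : I ⊔ Ideal.span (x '' Set.Iio 0) = I := by simp
    rw [e]
    simp
  | succ r ih =>
    refine (ih fun i hi => ha i (by omega)).trans ?_
    rw [Finset.prod_range_succ, Nat.cast_mul, mul_assoc]
    gcongr
    have e : I ⊔ Ideal.span (x '' Set.Iio (r + 1)) =
        I ⊔ Ideal.span (x '' Set.Iio r) ⊔ Ideal.span {x r} := by
      have : x '' Set.Iio (r + 1) = x '' Set.Iio r ∪ {x r} := by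
        ext z
        simp only [Set.mem_image, Set.mem_Iio, Set.mem_union, Set.mem_singleton_iff]
        constructor
        · rintro ⟨j, hj, rfl⟩
          rcases Nat.lt_succ_iff_lt_or_eq.1 hj with h | h
          · exact Or.inl ⟨j, h, rfl⟩
          · exact Or.inr (by rw [h])
        · rintro (⟨j, hj, rfl⟩ | rfl)
          · exact ⟨j, by omega, rfl⟩
          · exact ⟨r, by omega, rfl⟩
      rw [this, Ideal.span_union, sup_assoc]
    rw [e]
    exact step_pow _ (x r) N (pow_ne_top _ (ne_top_of_le_ne_top hI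
      (length_quot_anti le_sup_left)) N) (a r) (ha r (by omega))

/-- the bound through the socle ideal -/
theorem socle_bound (hF : Module.length S (S ⧸ (maximalIdeal R).map (algebraMap R S)) ≠ ⊤)
    (I : Ideal S) (hJI : (maximalIdeal R).map (algebraMap R S) ≤ I) (hIn : I ≤ maximalIdeal S)
    (hI : I * maximalIdeal S ≤ (maximalIdeal R).map (algebraMap R S))
    (hI2 : ∀ v ∈ I, ¬ I ≤ (maximalIdeal R).map (algebraMap R S) ⊔ Ideal.span {v})
    (x : ℕ → S) (a : ℕ → ℕ) (r k : ℕ)
    (ha : ∀ i < r, x i ^ a i ∈ I ⊔ Ideal.span (x '' Set.Iio i))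
    (hred : maximalIdeal S ^ (k + 1) ≤
      (I ⊔ Ideal.span (x '' Set.Iio r)) * maximalIdeal S ^ k) (N : ℕ) :
    Module.length R (R ⧸ maximalIdeal R ^ N) *
      Module.length S (S ⧸ (maximalIdeal R).map (algebraMap R S)) ≤
      ((∏ i ∈ Finset.range r, a i : ℕ) : ℕ∞) *
        Module.length S (S ⧸ maximalIdeal S ^ (N + (1 + k))) := by
  refine (fibre_mul_le hF N).trans ?_
  refine (length_quot_anti (socle_pow_le (R := R) I hIn hI hI2 N)).trans ?_
  have hIt : Module.length S (S ⧸ I) ≠ ⊤ := ne_top_of_le_ne_top hF (length_quot_anti hJI)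
  refine (chain_above I hIt x a r ha (N + 1)).trans ?_
  gcongr
  rw [← add_assoc]
  exact length_quot_anti (pow_le_of_reduction _ _ k hred (N + 1))

/-- square-zero closed fibres: the Hilbert functions -/
theorem square_zero (hF : Module.length S (S ⧸ (maximalIdeal R).map (algebraMap R S)) ≠ ⊤)
    (h2 : maximalIdeal S ^ 2 ≤ (maximalIdeal R).map (algebraMap R S)) (N : ℕ) :
    Module.length R (R ⧸ maximalIdeal R ^ N) ≤
      Module.length S (S ⧸ maximalIdeal S ^ (N + 1)) := by
  by_cases h : ∃ v ∈ maximalIdeal S,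
      maximalIdeal S ≤ (maximalIdeal R).map (algebraMap R S) ⊔ Ideal.span {v}
  · obtain ⟨v, hv, hle⟩ := h
    refine (two_elements (R := R) hF v v hv hv N).trans (length_quot_anti ?_)
    refine (Ideal.pow_le_pow_right (Nat.le_succ N)).trans (Ideal.pow_right_mono ?_ N)
    rw [Set.pair_eq_singleton]
    exact hle
  · have h3 : ∀ v ∈ maximalIdeal S,
        ¬ maximalIdeal S ≤ (maximalIdeal R).map (algebraMap R S) ⊔ Ideal.span {v} :=
      fun v hv hle => h ⟨v, hv, hle⟩
    rw [pow_two] at h2
    have h4 := length_quot_anti (socle_pow_le (R := R) (maximalIdeal S) le_rfl h2 h3 N)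
    refine le_trans ?_ h4
    refine le_trans ?_ (fibre_mul_le (R := R) hF N)
    have h5 : Module.length S (S ⧸ (maximalIdeal R).map (algebraMap R S)) ≠ 0 := by
      rw [Ne, Module.length_eq_zero_iff]
      intro hs
      have h6 : (maximalIdeal R).map (algebraMap R S) = ⊤ := Ideal.Quotient.subsingleton_iff.1 hs
      have h7 : (maximalIdeal R).map (algebraMap R S) ≤ maximalIdeal S := map_le
      rw [h6, top_le_iff] at h7
      exact (maximalIdeal.isMaximal S).ne_top h7
    exact ENat.self_le_mul_right _ h5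

end Bound

end Vale.Agent.P202
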